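import Vale.Agent.P258.R2.H550S5.S5
import Vale.Agent.P258.R2.H394.Graded

set_option linter.all false

/-!
The symmetric group on five letters, graded by the sign, separates the slopes `-2` and `2` for the
first pattern, for all odd twists and for the twists congruent to `2` modulo `5`.
-/

namespace Vale.Agent.P258.H550S5

theorem comm_same {A : Type*} [CommGroup A] (D : Diagram) (χ : Fin D.n → A) (h : D.IsCol χ)
    {a b : Fin D.n} (hab : D.SameComponent a b) : χ b = χ a := by
  obtain ⟨i, rfl⟩ := hab
  induction i with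
  | zero => rfl
  | succ i ih =>
    rw [Function.iterate_succ_apply', h, ih, mul_right_comm, ← zpow_add, neg_add_cancel,
      zpow_zero, one_mul]

theorem lonVal_E' {H : Type*} [Group H] (v : Fin 21 → H) :
    pattern.lonVal v patternE = (v 6)⁻¹ * v 10 := by
  have h : (fun b : Fin 21 => v (pattern.above b) ^ ((pattern.sgn b : ℤˣ) : ℤ)) =
      fun b => v (aboveV b) ^ (sgnV b : ℤ) := funext (fun b => by rw [aboveV_eq, sgnV_eq])
  have h1 : (List.map (fun b : Fin 21 => v (pattern.above b) ^ ((pattern.sgn b : ℤˣ) : ℤ))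
      [19, 20]).prod = v 6 ^ (-1 : ℤ) * (v 10 ^ (1 : ℤ) * (1)) := by
    rw [h]
    rfl
  have h3 := lonVal_eq (D := pattern) v patternE _ _ _ walk_E writhe_E h1
  rw [h3]
  simp only [zpow_one, zpow_neg_one, mul_one, neg_zero, zpow_zero]

theorem lon_comm {A : Type} [CommGroup A] (χ : Fin pattern.n → A) (h : pattern.IsCol χ) :
    pattern.lonVal χ patternE = 1 := by
  have h1 : pattern.lonVal χ patternE = (χ (6 : Fin 21))⁻¹ * χ (10 : Fin 21) := lonVal_E' χ
  have h6 : χ (6 : Fin 21) = χ patternK :=
    comm_same pattern χ h ((comp_K (6 : Fin 21)).2 (by decide))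
  have h10 : χ (10 : Fin 21) = χ patternK :=
    comm_same pattern χ h ((comp_K (10 : Fin 21)).2 (by decide))
  rw [h1, h6, h10, inv_mul_cancel]

theorem rowS5 (f : ℤ) (hf : f % 2 = 1 ∨ f % 5 = 2) :
    SeparatesGraded (Equiv.Perm (Fin 5)) ℤˣ Equiv.Perm.sign pattern patternK patternE f (-2) 2 := by
  refine ⟨?_, ?_, ?_⟩
  · intro χ h1 h2 a
    have hcol : pattern.IsCol χ := fun a => (pattern.lift_wirtinger χ a).1 (h1 a)
    have hE : lon pattern χ patternE = 1 :=
      (pattern.lift_longitude χ patternE).trans (lon_comm χ hcol)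
    rw [hE, one_zpow] at h2
    by_cases ha : a.val < 19
    · rw [comm_same pattern χ hcol ((comp_K a).2 ha)]
      exact Subgroup.mem_zpowers _
    · rw [comm_same pattern χ hcol ((comp_E a).2 (not_lt.1 ha)), h2]
      exact one_mem _
  · intro ρ h1 h2 h3 h4 h5
    have hcol : pattern.IsCol ρ := fun a => (pattern.lift_wirtinger ρ a).1 (h1 a)
    have hs : Equiv.Perm.sign (ρ patternK) = -1 := by
      rcases Int.units_eq_one_or (Equiv.Perm.sign (ρ patternK)) with h | h
      · exfalso
        rw [h, Subgroup.zpowers_one_eq_bot] at h2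
        have h6 : (-1 : ℤˣ) ∈ (⊥ : Subgroup ℤˣ) := by rw [h2]; trivial
        rw [Subgroup.mem_bot] at h6
        exact absurd h6 (by decide)
      · exact h
    have hlon : Equiv.Perm.sign (lon pattern ρ patternE) = 1 := by
      have e1 : lon pattern ρ patternE = pattern.lonVal ρ patternE :=
        pattern.lift_longitude ρ patternE
      rw [e1, map_lonVal]
      exact lon_comm _ (isCol_map Equiv.Perm.sign pattern ρ hcol)
    have hs' : Equiv.Perm.sign (ρ patternE) = 1 := by rw [h3, hlon, one_zpow]
    have h6 := rowS5A ρ h1 hs hs' (fun h => by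
      have := h4 (by rw [h]; exact one_mem _)
      rwa [h, one_zpow] at this) h5
    have e : ((-2 : ℤ) - 2) = -4 := by norm_num
    rw [e]
    exact h6
  · obtain ⟨ρ, a1, a2, a3, a4, a5⟩ := rowS5B f hf
    refine ⟨ρ, a1, ?_, a3, ?_, a5⟩
    · rw [a2]
      refine (Subgroup.eq_top_iff' _).2 fun x => ?_
      rcases Int.units_eq_one_or x with rfl | rfl
      · exact one_mem _
      · exact Subgroup.mem_zpowers _
    · have e : ((-2 : ℤ) - 2) = -4 := by norm_num
      rw [e]
      exact a4

/-- The class form: all companions, all patterns congruent modulo `60`. -/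
theorem class_S5 (f : ℤ) (hf : f % 2 = 1 ∨ f % 5 = 2) :
    SeparatesClassSlopes 60 pattern patternK patternE f (-2) 2 :=
  separatesClassSlopes_of_graded Equiv.Perm.sign (N := 60) rowS5C pattern patternK patternE f
    (-2) 2 (rowS5 f hf)

end Vale.Agent.P258.H550S5
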