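import Vale.Agent.P258.R2.H550S5.Code

set_option linter.all false

namespace Vale.Agent.P258.H550S5

/-- The code of a permutation. -/
def code (A : G) : ℕ := cd (A 0).val (A 1).val (A 2).val (A 3).val (A 4).val

theorem code_eq (A : G) : code A =
    (A 0).val + 8 * (A 1).val + (64 * (A 2).val + 512 * (A 3).val) + 4096 * (A 4).val := rfl

theorem dig (A : G) (k : Fin 5) : dgt (code A) k.val = (A k).val := by
  have h0 := (A 0).isLt
  have h1 := (A 1).isLt
  have h2 := (A 2).isLt
  have h3 := (A 3).isLt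
  have h4 := (A 4).isLt
  rw [code_eq]
  fin_cases k
  · change ((A 0).val + 8 * (A 1).val + (64 * (A 2).val + 512 * (A 3).val) +
      4096 * (A 4).val) / 1 % 8 = (A 0).val
    omega
  · change ((A 0).val + 8 * (A 1).val + (64 * (A 2).val + 512 * (A 3).val) +
      4096 * (A 4).val) / 8 % 8 = (A 1).val
    omega
  · change ((A 0).val + 8 * (A 1).val + (64 * (A 2).val + 512 * (A 3).val) +
      4096 * (A 4).val) / 64 % 8 = (A 2).val
    omega
  · change ((A 0).val + 8 * (A 1).val + (64 * (A 2).val + 512 * (A 3).val) +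
      4096 * (A 4).val) / 512 % 8 = (A 3).val
    omega
  · change ((A 0).val + 8 * (A 1).val + (64 * (A 2).val + 512 * (A 3).val) +
      4096 * (A 4).val) / 4096 % 8 = (A 4).val
    omega

theorem dig0 (A : G) : dgt (code A) 0 = (A 0).val := dig A 0
theorem dig1 (A : G) : dgt (code A) 1 = (A 1).val := dig A 1
theorem dig2 (A : G) : dgt (code A) 2 = (A 2).val := dig A 2
theorem dig3 (A : G) : dgt (code A) 3 = (A 3).val := dig A 3
theorem dig4 (A : G) : dgt (code A) 4 = (A 4).val := dig A 4

theorem code_mul (A B : G) : code (A * B) = mulN (code A) (code B) := by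
  unfold mulN
  rw [dig0 B, dig1 B, dig2 B, dig3 B, dig4 B, dig, dig, dig, dig, dig]
  rfl

theorem code_sum (A : G) : code A = ∑ i : Fin 5, (A i).val * 8 ^ i.val := by
  rw [code_eq, Fin.sum_univ_five]
  simp
  ring

theorem code_inv (A : G) : code A⁻¹ = invN (code A) := by
  rw [code_sum, ← Equiv.sum_comp A, Fin.sum_univ_five]
  unfold invN
  rw [dig1, dig2, dig3, dig4]
  have hi : ∀ i, A⁻¹ (A i) = i := fun i => A.symm_apply_apply i
  simp only [hi]
  change 0 * 8 ^ (A 0).val + 1 * 8 ^ (A 1).val + 2 * 8 ^ (A 2).val + 3 * 8 ^ (A 3).val +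
    4 * 8 ^ (A 4).val = (8 ^ (A 1).val + 2 * 8 ^ (A 2).val) +
      (3 * 8 ^ (A 3).val + 4 * 8 ^ (A 4).val)
  ring

theorem code_one : code 1 = 18056 := by decide +kernel

theorem code_inj {A B : G} (h : code A = code B) : A = B := by
  apply Equiv.ext
  intro i
  apply Fin.ext
  rw [← dig A i, ← dig B i, h]

theorem code_cj (x k : G) : code (k⁻¹ * x * k) = cjN (code x) (code k) := by
  rw [code_mul, code_mul, code_inv]; rfl

theorem code_ci (x k : G) : code (k * x * k⁻¹) = ciN (code x) (code k) := by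
  rw [code_mul, code_mul, code_inv]; rfl

theorem mem_of_mem {x : ℕ} {l : List ℕ} (h : mem x l = true) : x ∈ l := by
  unfold mem at h
  rw [List.any_eq_true] at h
  obtain ⟨y, hy, e⟩ := h
  rw [Nat.eq_of_beq_eq_true e]
  exact hy

theorem all_step {l : List ℕ} {x : ℕ} {p : ℕ → Bool} (h : l.all p = true) (hx : x ∈ l) :
    p x = true := List.all_eq_true.1 h x hx

theorem all_range' {n : ℕ} {p : ℕ → Bool} (h : (List.range n).all p = true) {a : ℕ}
    (ha : a < n) : p a = true := List.all_eq_true.1 h a (List.mem_range.2 ha)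

/-- All elements of the group satisfy `p`. -/
def allEl (p : ℕ → Bool) : Bool := allC.all p

theorem chk_allC : ∀ A : G, mem (code A) allC = true := by
  decide +kernel

theorem of_allEl {p : ℕ → Bool} (h : allEl p = true) (A : G) : p (code A) = true :=
  all_step h (mem_of_mem (chk_allC A))

theorem chk_exists : ∀ x ∈ allC, ∃ W : G, code W = x := by
  decide +kernel

theorem exists_code {x : ℕ} (h : valid x = true) : ∃ W : G, code W = x :=
  chk_exists x (mem_of_mem h)

theorem chk_odd : ∀ A : G, Equiv.Perm.sign A = -1 →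
    Nat.beq (mulN (mulN (code A) (code A)) (mulN (code A) (code A))) 18056 = true ∨
      mem (code A) (cl 0) = true := by
  decide +kernel

theorem chk_even : ∀ A : G, Equiv.Perm.sign A = 1 → mem (code A) evC = true := by
  decide +kernel

theorem chk_class : allEl (fun k => (List.range 1).all fun t =>
    force (ciN (rep t) k) fun y => mem y (cl t)) = true := by
  decide +kernel

theorem chk_cen : allEl (fun x => (List.range 1).all fun t =>
    !(Nat.beq (mulN (rep t) x) (mulN x (rep t))) || mem x (cen t)) = true := by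
  decide +kernel

theorem chk_w : ((List.range 1).all fun t => (cl t).all fun x =>
    force (wN t x) fun w => valid w && Nat.beq (mulN w x) (mulN (rep t) w)) = true := by
  decide +kernel

theorem chk_cenval : ((List.range 1).all fun t => (cen t).all fun c =>
    valid c && Nat.beq (mulN c (rep t)) (mulN (rep t) c)) = true := by
  decide +kernel

theorem chk_orb : ((List.range 1).all fun t => (cl t).all fun x =>
    (cen t).any fun c => force (ciN x c) fun y => mem y (orb t)) = true := by
  decide +kernel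

theorem chk_rep : ((List.range 1).all fun t => valid (rep t)) = true := by
  decide +kernel

theorem exists_rep {t : ℕ} (ht : t < 1) : ∃ R : G, code R = rep t :=
  exists_code (all_range' chk_rep ht)

theorem exists_w {t : ℕ} (ht : t < 1) {R : G} (hR : code R = rep t) {A : G}
    (h : code A ∈ cl t) : ∃ W : G, code W = wN t (code A) ∧ W * A = R * W := by
  have h1 := all_step (all_range' chk_w ht) h
  rw [force_eq, Bool.and_eq_true] at h1
  obtain ⟨W, hW⟩ := exists_code h1.1
  refine ⟨W, hW, code_inj ?_⟩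
  rw [code_mul, code_mul, hW, hR]
  exact Nat.eq_of_beq_eq_true h1.2

theorem exists_class {A : G} (hs : Equiv.Perm.sign A = -1) (h : A * A * (A * A) ≠ 1) :
    code A ∈ cl 0 := by
  rcases chk_odd A hs with h1 | h1
  · exact absurd (code_inj (by
      rw [code_mul, code_mul, code_one]; exact Nat.eq_of_beq_eq_true h1)) h
  · exact mem_of_mem h1

theorem mem_cl {t : ℕ} (ht : t < 1) {R : G} (hR : code R = rep t) {A k : G}
    (h : A = k⁻¹ * R * k) : code A ∈ cl t := by
  have h1 := all_range' (of_allEl chk_class k⁻¹) ht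
  rw [force_eq, ← hR, ← code_ci, inv_inv, ← h] at h1
  exact mem_of_mem h1

theorem mem_cen {t : ℕ} (ht : t < 1) {R : G} (hR : code R = rep t) {A : G}
    (h : R * A = A * R) : code A ∈ cen t := by
  have h1 := all_range' (of_allEl chk_cen A) ht
  rw [← hR, ← code_mul, ← code_mul, h, Nat.beq_refl, Bool.not_true, Bool.false_or] at h1
  exact mem_of_mem h1

theorem exists_orb {t : ℕ} (ht : t < 1) {R : G} (hR : code R = rep t) {A : G}
    (h : code A ∈ cl t) : ∃ C : G, C * R = R * C ∧ code (C * A * C⁻¹) ∈ orb t := by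
  have h1 := all_step (all_range' chk_orb ht) h
  rw [List.any_eq_true] at h1
  obtain ⟨c, hc, e⟩ := h1
  have h2 := all_step (all_range' chk_cenval ht) hc
  rw [Bool.and_eq_true] at h2
  obtain ⟨C, hC⟩ := exists_code h2.1
  refine ⟨C, code_inj ?_, ?_⟩
  · rw [code_mul, code_mul, hC, hR]
    exact Nat.eq_of_beq_eq_true h2.2
  · rw [code_ci, hC]
    rw [force_eq] at e
    exact mem_of_mem e

/-- All elements conjugating `g` to `h`. -/
theorem transporter {t : ℕ} (ht : t < 1) {R : G} (hR : code R = rep t) {g h y : G}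
    (hg : code g ∈ cl t) (hh : code h ∈ cl t) (hy : h = y⁻¹ * g * y) :
    ∃ c ∈ cen t, code y = mulN (mulN (invN (wN t (code g))) c) (wN t (code h)) := by
  obtain ⟨Wg, hWg, eg⟩ := exists_w ht hR hg
  obtain ⟨Wh, hWh, eh⟩ := exists_w ht hR hh
  have eg' : g = Wg⁻¹ * R * Wg := by rw [mul_assoc, ← eg]; group
  have eh' : h = Wh⁻¹ * R * Wh := by rw [mul_assoc, ← eh]; group
  refine ⟨code (Wg * y * Wh⁻¹), ?_, ?_⟩
  · refine mem_cen ht hR ?_
    have h1 : Wh⁻¹ * R * Wh = y⁻¹ * (Wg⁻¹ * R * Wg) * y := by rw [← eg', ← eh', hy]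
    calc R * (Wg * y * Wh⁻¹)
        = Wg * y * (y⁻¹ * (Wg⁻¹ * R * Wg) * y) * Wh⁻¹ := by group
      _ = Wg * y * (Wh⁻¹ * R * Wh) * Wh⁻¹ := by rw [h1]
      _ = Wg * y * Wh⁻¹ * R := by group
  · rw [← hWg, ← hWh, ← code_inv, ← code_mul, ← code_mul]
    congr 1
    group

/-- All elements conjugating the representative to `h`. -/
theorem transporter_rep {t : ℕ} (ht : t < 1) {R : G} (hR : code R = rep t) {h y : G}
    (hh : code h ∈ cl t) (hy : h = y⁻¹ * R * y) :
    ∃ c ∈ cen t, code y = mulN c (wN t (code h)) := by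
  obtain ⟨Wh, hWh, eh⟩ := exists_w ht hR hh
  have eh' : h = Wh⁻¹ * R * Wh := by rw [mul_assoc, ← eh]; group
  refine ⟨code (y * Wh⁻¹), ?_, ?_⟩
  · refine mem_cen ht hR ?_
    have h1 : Wh⁻¹ * R * Wh = y⁻¹ * R * y := by rw [← eh', hy]
    calc R * (y * Wh⁻¹)
        = y * (y⁻¹ * R * y) * Wh⁻¹ := by group
      _ = y * (Wh⁻¹ * R * Wh) * Wh⁻¹ := by rw [h1]
      _ = y * Wh⁻¹ * R := by group
  · rw [← hWh, ← code_mul]
    congr 1
    group

theorem chk_pow : allEl (fun x => force (mulN x x) fun u2 => force (mulN u2 u2) fun u4 =>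
    force (mulN u4 u4) fun u8 => force (mulN u8 u8) fun u16 => force (mulN u16 u16) fun u32 =>
      Nat.beq (mulN (mulN (mulN u32 u16) u8) u4) 18056) = true := by
  decide +kernel

theorem G_pow (g : G) : g ^ 60 = 1 := by
  have h : g ^ 60 = g ^ 32 * g ^ 16 * g ^ 8 * g ^ 4 := by
    simp only [← pow_add]
  have h2 : g ^ 2 = g * g := pow_two g
  have h4 : g ^ 4 = g ^ 2 * g ^ 2 := by simp only [← pow_add]
  have h8 : g ^ 8 = g ^ 4 * g ^ 4 := by simp only [← pow_add]
  have h16 : g ^ 16 = g ^ 8 * g ^ 8 := by simp only [← pow_add]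
  have h32 : g ^ 32 = g ^ 16 * g ^ 16 := by simp only [← pow_add]
  apply code_inj
  have h0 := of_allEl chk_pow g
  simp only [force_eq] at h0
  have h1 := Nat.eq_of_beq_eq_true h0
  rw [h, code_mul, code_mul, code_mul, h32, code_mul, h16, code_mul, h8, code_mul, h4, code_mul,
    h2, code_mul, code_one]
  exact h1

end Vale.Agent.P258.H550S5
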