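import Vale.Agent.P258.R2.H550S5.Rows

set_option linter.all false

/-!
Homomorphisms of the group of the first pattern to the symmetric group on five letters which take
the meridian of `K` to an odd permutation.
-/

namespace Vale.Agent.P258.H550S5

theorem pow_neg_four {H : Type*} [Group H] (x : H) : x ^ (-4 : ℤ) = (x * x * (x * x))⁻¹ :=
  four_eq x

/-- Row S5 (A): no homomorphism with the meridian of `K` odd, the meridian of `E` even and nothing
but `1` above the longitude `1` of `E` kills the curve of slope `2`, unless the fourth power of the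
meridian of `K` is `1`. -/
theorem rowS5A (ρ : Fin pattern.n → Equiv.Perm (Fin 5)) (h1 : IsHom pattern ρ)
    (hs : Equiv.Perm.sign (ρ patternK) = -1) (hs' : Equiv.Perm.sign (ρ patternE) = 1)
    (hE : lon pattern ρ patternE = 1 → ρ patternE = 1)
    (hl : ρ patternK ^ (2 : ℤ) * lon pattern ρ patternK = 1) : ρ patternK ^ (-4 : ℤ) = 1 := by
  have hcol : pattern.IsCol ρ := fun a => (pattern.lift_wirtinger ρ a).1 (h1 a)
  have e1 : lon pattern ρ patternE = pattern.lonVal ρ patternE :=
    pattern.lift_longitude ρ patternE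
  have e2 : lon pattern ρ patternK = pattern.lonVal ρ patternK :=
    pattern.lift_longitude ρ patternK
  rw [e1] at hE
  rw [e2, zpow_two] at hl
  have h4 : ρ patternK * ρ patternK * (ρ patternK * ρ patternK) = 1 := keyR ρ hcol hs hs' hE hl
  rw [pow_neg_four, h4, inv_one]

theorem exists_of_base (b : Fin 21 → G) (hb : PatRel b) (hs : Equiv.Perm.sign (b 0) = -1)
    (hK : lamK b = b 0 * b 0)
    (h4 : b 0 * b 0 * (b 0 * b 0) ≠ 1) (n : ℕ) (h8 : ((b 6)⁻¹ * b 10) ^ n = 1) (r : ℕ)
    (hr : b 19 = ((b 6)⁻¹ * b 10) ^ r) (f : ℤ) (hf : f % (n : ℤ) = r) :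
    ∃ ρ : Fin pattern.n → G, IsHom pattern ρ ∧ Equiv.Perm.sign (ρ patternK) = -1 ∧
      ρ patternK ^ (-2 : ℤ) * lon pattern ρ patternK = 1 ∧
      ρ patternK ^ (-4 : ℤ) ≠ 1 ∧ ρ patternE = lon pattern ρ patternE ^ f := by
  have hl : ∀ a, lon pattern b a = pattern.lonVal b a := fun a => pattern.lift_longitude b a
  refine ⟨b, fun a => (pattern.lift_wirtinger b a).2 (isCol_of_patRel b hb a), hs, ?_, ?_, ?_⟩
  · rw [hl, lonVal_K, hK]
    change b 0 ^ (-2 : ℤ) * (b 0 * b 0) = 1
    group
  · change b 0 ^ (-4 : ℤ) ≠ 1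
    rw [pow_neg_four]
    intro h
    exact h4 (inv_eq_one.1 h)
  · rw [hl, lonVal_E, zpow_mod_n _ n h8 f r hf]
    exact hr

/-- Row S5 (B): for odd `f` and for `f = 2` modulo `5`, some homomorphism with the meridian of `K`
odd kills the curve of slope `-2`, does not kill the fourth power of the meridian, and takes the
meridian of `E` to the power of exponent `f` of the longitude of `E`. -/
theorem rowS5B (f : ℤ) (hf : f % 2 = 1 ∨ f % 5 = 2) :
    ∃ ρ : Fin pattern.n → Equiv.Perm (Fin 5), IsHom pattern ρ ∧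
      Equiv.Perm.sign (ρ patternK) = -1 ∧
      ρ patternK ^ (-2 : ℤ) * lon pattern ρ patternK = 1 ∧
      ρ patternK ^ (-4 : ℤ) ≠ 1 ∧ ρ patternE = lon pattern ρ patternE ^ f := by
  rcases hf with hf | hf
  · exact exists_of_base baseA baseA_rel baseA_odd baseA_K baseA_four 2 baseA_E 1 baseA_19 f
      (by exact_mod_cast hf)
  · exact exists_of_base baseB baseB_rel baseB_odd baseB_K baseB_four 5 baseB_E 2 baseB_19 f
      (by exact_mod_cast hf)

/-- Row S5 (C). -/
theorem rowS5C (g : Equiv.Perm (Fin 5)) : g ^ 60 = 1 := G_pow g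

end Vale.Agent.P258.H550S5
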